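import Vale.Agent.P088.H442.C.Defs

/-!
# P088, Theorem C, row EN: `f` is controlled by `σ⁻¹ div (σ ∇f)` (maximum principle)
-/

open MeasureTheory Set Filter Topology
open scoped ContDiff Matrix

noncomputable section

namespace Vale.Agent.P088.LR.H404

open CC CF

variable {n : ℕ}

lemma pd_cx {f : V n → ℝ} (hf : ContDiff ℝ ∞ f) (i : Fin n) (x : V n) :
    pd i (cx f) x = ((pd i f x : ℝ) : ℂ) := by
  have h1 : DifferentiableAt ℝ f x := (hf.differentiable (by simp)) x
  have h2 : HasFDerivAt (cx f) (Complex.ofRealCLM.comp (fderiv ℝ f x)) x :=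
    Complex.ofRealCLM.hasFDerivAt.comp x h1.hasFDerivAt
  unfold pd
  rw [h2.fderiv]
  rfl

lemma sm_pd {f : V n → ℝ} (hf : ContDiff ℝ ∞ f) (i : Fin n) : ContDiff ℝ ∞ (pd i f) := by
  unfold pd
  exact (hf.fderiv_right (m := ∞) (by simp)).clm_apply contDiff_const

lemma pd_mul {f g : V n → ℝ} (hf : ContDiff ℝ ∞ f) (hg : ContDiff ℝ ∞ g) (i : Fin n) (x : V n) :
    pd i (fun y => f y * g y) x = pd i f x * g x + f x * pd i g x := by
  have h1 : DifferentiableAt ℝ f x := (hf.differentiable (by simp)) x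
  have h2 : DifferentiableAt ℝ g x := (hg.differentiable (by simp)) x
  unfold pd
  rw [fderiv_fun_mul h1 h2]
  simp only [add_apply, smul_apply, smul_eq_mul]
  ring

/-- the operator `div (σ ∇f)`, real form -/
def Lr (σ f : V n → ℝ) (x : V n) : ℝ := ∑ i, pd i (fun y => σ y * pd i f y) x

lemma dv_sc {σ f : V n → ℝ} (hσ : ContDiff ℝ ∞ σ) (hf : ContDiff ℝ ∞ f) (x : V n) :
    dv (sc σ) (cx f) x = ((Lr σ f x : ℝ) : ℂ) := by
  unfold dv Lr
  push_cast
  refine Finset.sum_congr rfl fun i _ => ?_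
  have e : (fun y => ∑ j, ((sc σ y i j : ℝ) : ℂ) * pd j (cx f) y) =
      cx (fun y => σ y * pd i f y) := by
    funext y
    rw [Finset.sum_eq_single i]
    · rw [pd_cx hf]
      simp [sc, cx]
    · intro j _ hj
      simp [sc, Matrix.one_apply_ne (Ne.symm hj)]
    · simp
  rw [e, pd_cx (hσ.mul (sm_pd hf i))]

lemma Lr_eq {σ f : V n → ℝ} (hσ : ContDiff ℝ ∞ σ) (hf : ContDiff ℝ ∞ f) (x : V n) :
    Lr σ f x = ∑ i, (pd i σ x * pd i f x + σ x * pd i (pd i f) x) := by
  unfold Lr
  exact Finset.sum_congr rfl fun i _ => pd_mul hσ (sm_pd hf i) i x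

/-- restriction to a coordinate line -/
lemma line_deriv {f : V n → ℝ} (hf : ContDiff ℝ ∞ f) (i : Fin n) (x : V n) (t : ℝ) :
    HasDerivAt (fun s : ℝ => f (x + s • Pi.single i 1)) (pd i f (x + t • Pi.single i 1)) t := by
  have h1 : HasDerivAt (fun s : ℝ => x + s • (Pi.single i 1 : V n)) (Pi.single i 1) t := by
    simpa using ((hasDerivAt_id t).smul_const (Pi.single i 1 : V n)).const_add x
  exact ((hf.differentiable (by simp)) _).hasFDerivAt.comp_hasDerivAt t h1

lemma snd_nonpos {h : V n → ℝ} (hh : ContDiff ℝ ∞ h) {x : V n} (hx : IsLocalMax h x)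
    (i : Fin n) : pd i (pd i h) x ≤ 0 := by
  by_contra hc
  push Not at hc
  set g : ℝ → ℝ := fun s => h (x + s • Pi.single i 1) with hg
  have d1 : ∀ t, HasDerivAt g (pd i h (x + t • Pi.single i 1)) t := line_deriv hh i x
  have e1 : deriv g = fun t => pd i h (x + t • Pi.single i 1) := by
    funext t; exact (d1 t).deriv
  have d2 : HasDerivAt (deriv g) (pd i (pd i h) (x + (0 : ℝ) • Pi.single i 1)) 0 := by
    rw [e1]; exact line_deriv (sm_pd hh i) i x 0
  have hcont : Continuous fun s : ℝ => x + s • (Pi.single i 1 : V n) := by fun_prop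
  have hmax : IsLocalMax g 0 := by
    have h0 : Tendsto (fun s : ℝ => x + s • (Pi.single i 1 : V n)) (𝓝 0) (𝓝 x) := by
      have := hcont.tendsto 0
      simpa using this
    have := h0.eventually hx
    refine this.mono fun s hs => ?_
    simpa [hg] using hs
  have hd0 : deriv g 0 = 0 := hmax.deriv_eq_zero
  have hdd : 0 < deriv (deriv g) 0 := by rw [d2.deriv]; simpa using hc
  have hmin : IsLocalMin g 0 :=
    isLocalMin_of_deriv_deriv_pos hdd hd0 (d1 0).continuousAt
  -- `g` is locally constant, so the second derivative vanishes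
  have hconst : g =ᶠ[𝓝 0] fun _ => g 0 := by
    filter_upwards [hmax, hmin] with s h1 h2
    exact le_antisymm h1 h2
  have h3 : deriv g =ᶠ[𝓝 0] fun _ => (0 : ℝ) := by
    have := hconst.deriv
    refine this.trans ?_
    refine Eventually.of_forall fun s => ?_
    simp
  have h4 : deriv (deriv g) 0 = 0 := by
    rw [h3.deriv_eq]; simp
  linarith

lemma Lr_nonpos {σ h : V n → ℝ} (hσ : ContDiff ℝ ∞ σ) (hp : ∀ x, 0 < σ x)
    (hh : ContDiff ℝ ∞ h) {x : V n} (hx : IsLocalMax h x) : Lr σ h x ≤ 0 := by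
  rw [Lr_eq hσ hh]
  refine Finset.sum_nonpos fun i _ => ?_
  have h1 : pd i h x = 0 := by
    unfold pd
    rw [hx.fderiv_eq_zero]; simp
  have h2 := snd_nonpos hh hx i
  rw [h1]
  have := hp x
  nlinarith

lemma core_compact (n : ℕ) : IsCompact (core n) := by
  have : core n = Set.pi univ fun _ : Fin n => Icc (1 / 4 : ℝ) (3 / 4) := by
    ext x; simp only [core, Set.mem_ofPred_eq, Set.mem_pi, mem_univ, mem_Icc, true_implies]
  rw [this]
  exact isCompact_univ_pi fun _ => isCompact_Icc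

/-- the barrier `e^{l x_0}` -/
def ba (l : ℝ) (i₀ : Fin n) (x : V n) : ℝ := Real.exp (l * x i₀)

lemma ba_sm (l : ℝ) (i₀ : Fin n) : ContDiff ℝ ∞ (ba l i₀) := by
  unfold ba
  fun_prop

lemma pd_ba (l : ℝ) (i₀ i : Fin n) (x : V n) :
    pd i (ba l i₀) x = if i = i₀ then l * ba l i₀ x else 0 := by
  have h1 : HasFDerivAt (fun y : V n => l * y i₀)
      (l • (ContinuousLinearMap.proj (R := ℝ) (φ := fun _ : Fin n => ℝ) i₀)) x := by
    have := (ContinuousLinearMap.proj (R := ℝ) (φ := fun _ : Fin n => ℝ) i₀).hasFDerivAt (x := x)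
    exact this.const_smul l
  have h2 : HasFDerivAt (ba l i₀) (Real.exp (l * x i₀) •
      (l • (ContinuousLinearMap.proj (R := ℝ) (φ := fun _ : Fin n => ℝ) i₀))) x := h1.exp
  unfold pd
  rw [h2.fderiv]
  by_cases hi : i = i₀
  · subst hi
    simp [ba]; ring
  · have : (Pi.single i (1 : ℝ) : V n) i₀ = 0 := Pi.single_eq_of_ne (Ne.symm hi) 1
    simp [hi]

lemma pdpd_ba (l : ℝ) (i₀ i : Fin n) (x : V n) :
    pd i (pd i (ba l i₀)) x = if i = i₀ then l ^ 2 * ba l i₀ x else 0 := by
  by_cases hi : i = i₀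
  · subst hi
    have e : pd i (ba l i) = fun y => (fun _ => l) y * ba l i y := by
      funext y; rw [pd_ba]; simp
    rw [e, pd_mul contDiff_const (ba_sm l i), pd_ba]
    have : pd i (fun _ : V n => l) x = 0 := by unfold pd; simp
    rw [this]; simp; ring
  · have e : pd i (ba l i₀) = fun _ => (0 : ℝ) := by
      funext y; rw [pd_ba]; simp [hi]
    rw [e]
    unfold pd
    simp [hi]

lemma Lr_ba {σ : V n → ℝ} (hσ : ContDiff ℝ ∞ σ) (l : ℝ) (i₀ : Fin n) (x : V n) :
    Lr σ (ba l i₀) x = (l * pd i₀ σ x + l ^ 2 * σ x) * ba l i₀ x := by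
  rw [Lr_eq hσ (ba_sm l i₀)]
  rw [Finset.sum_eq_single i₀]
  · rw [pd_ba, pdpd_ba]; simp; ring
  · intro i _ hi
    rw [pd_ba, pdpd_ba]; simp [hi]
  · simp

lemma Lr_add {σ f g : V n → ℝ} (hσ : ContDiff ℝ ∞ σ) (hf : ContDiff ℝ ∞ f)
    (hg : ContDiff ℝ ∞ g) (c : ℝ) (x : V n) :
    Lr σ (fun y => f y + c * g y) x = Lr σ f x + c * Lr σ g x := by
  have hs : ContDiff ℝ ∞ (fun y => f y + c * g y) := hf.add (contDiff_const.mul hg)
  have e : ∀ i, pd i (fun y => f y + c * g y) = fun y => pd i f y + c * pd i g y := by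
    intro i
    funext y
    have h1 : DifferentiableAt ℝ f y := (hf.differentiable (by simp)) y
    have h2 : DifferentiableAt ℝ g y := (hg.differentiable (by simp)) y
    unfold pd
    rw [fderiv_fun_add h1 (h2.const_mul c), fderiv_const_mul h2]
    simp
  have e2 : ∀ i, pd i (pd i (fun y => f y + c * g y)) x = pd i (pd i f) x + c * pd i (pd i g) x := by
    intro i
    rw [e i]
    have h1 : DifferentiableAt ℝ (pd i f) x := ((sm_pd hf i).differentiable (by simp)) x
    have h2 : DifferentiableAt ℝ (pd i g) x := ((sm_pd hg i).differentiable (by simp)) x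
    unfold pd at h1 h2 ⊢
    rw [fderiv_fun_add h1 (h2.const_mul c), fderiv_const_mul h2]
    simp
  rw [Lr_eq hσ hs, Lr_eq hσ hf, Lr_eq hσ hg, Finset.mul_sum, ← Finset.sum_add_distrib]
  refine Finset.sum_congr rfl fun i _ => ?_
  rw [e2 i, e i]
  ring

/-- zero at the faces of the core -/
lemma zero_face {f : V n → ℝ} (hf : Continuous f) (h0 : ∀ x ∉ core n, f x = 0) {x : V n}
    {j : Fin n} (hj : x j = 1 / 4 ∨ x j = 3 / 4) : f x = 0 := by
  have hcont : Continuous fun s : ℝ => f (x + s • (Pi.single j 1 : V n)) := by fun_prop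
  have hT : Tendsto (fun s : ℝ => f (x + s • (Pi.single j 1 : V n))) (𝓝 0) (𝓝 (f x)) := by
    have := hcont.tendsto 0
    simpa using this
  rcases hj with hj | hj
  · have hT' := hT.mono_left (nhdsWithin_le_nhds (s := Iio (0 : ℝ)))
    have hz : (fun s : ℝ => f (x + s • (Pi.single j 1 : V n))) =ᶠ[𝓝[<] (0 : ℝ)] fun _ => 0 := by
      filter_upwards [self_mem_nhdsWithin] with s hs
      refine h0 _ fun hc => ?_
      have := (hc j).1
      simp [hj] at this
      linarith [Set.mem_Iio.1 hs]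
    exact tendsto_nhds_unique (hT'.congr' hz) tendsto_const_nhds |>.symm ▸ rfl
  · have hT' := hT.mono_left (nhdsWithin_le_nhds (s := Ioi (0 : ℝ)))
    have hz : (fun s : ℝ => f (x + s • (Pi.single j 1 : V n))) =ᶠ[𝓝[>] (0 : ℝ)] fun _ => 0 := by
      filter_upwards [self_mem_nhdsWithin] with s hs
      refine h0 _ fun hc => ?_
      have := (hc j).2
      simp [hj] at this
      linarith [Set.mem_Ioi.1 hs]
    exact tendsto_nhds_unique (hT'.congr' hz) tendsto_const_nhds |>.symm ▸ rfl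

/-- maximum principle on the core -/
lemma max_pr {σ f : V n → ℝ} (hσ : ContDiff ℝ ∞ σ) (hp : ∀ x, 0 < σ x) (hf : ContDiff ℝ ∞ f)
    (h0 : ∀ x ∉ core n, f x = 0) {l : ℝ} (hl : 0 ≤ l) (i₀ : Fin n)
    (hb : ∀ x ∈ core n, σ x ≤ (l * pd i₀ σ x + l ^ 2 * σ x) * ba l i₀ x) {b : ℝ}
    (hbf : ∀ x, -(b * σ x) < Lr σ f x) (hb0 : 0 ≤ b) (x : V n) : f x ≤ b * Real.exp l := by
  classical
  by_cases hx : x ∈ core n
  swap
  · rw [h0 x hx]; positivity
  set h : V n → ℝ := fun y => f y + b * ba l i₀ y with hh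
  have hs : ContDiff ℝ ∞ h := hf.add (contDiff_const.mul (ba_sm l i₀))
  obtain ⟨y, hy, hmax⟩ := (core_compact n).exists_isMaxOn ⟨x, hx⟩ hs.continuous.continuousOn
  have hle : f x ≤ h y := by
    have h1 : h x ≤ h y := hmax hx
    have h2 : 0 ≤ b * ba l i₀ x := by unfold ba; positivity
    have h3 : h x = f x + b * ba l i₀ x := rfl
    linarith
  have hbay : ba l i₀ y ≤ Real.exp l := by
    unfold ba
    refine Real.exp_le_exp.2 ?_
    have := (hy i₀).2
    nlinarith
  by_cases hfc : ∃ j, y j = 1 / 4 ∨ y j = 3 / 4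
  · obtain ⟨j, hj⟩ := hfc
    have h1 : f y = 0 := zero_face hf.continuous h0 hj
    have h2 : h y = b * ba l i₀ y := by simp [hh, h1]
    rw [h2] at hle
    exact hle.trans (mul_le_mul_of_nonneg_left hbay hb0)
  · exfalso
    push Not at hfc
    have hnb : core n ∈ 𝓝 y := by
      have e : core n = Set.pi univ fun _ : Fin n => Icc (1 / 4 : ℝ) (3 / 4) := by
        ext z; simp only [core, Set.mem_ofPred_eq, Set.mem_pi, mem_univ, mem_Icc, true_implies]
      rw [e]
      refine set_pi_mem_nhds finite_univ fun j _ => ?_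
      have h1 := (hy j).1
      have h2 := (hy j).2
      have h3 := (hfc j).1
      have h4 := (hfc j).2
      exact Icc_mem_nhds (lt_of_le_of_ne h1 (Ne.symm h3)) (lt_of_le_of_ne h2 h4)
    have hloc : IsLocalMax h y := hmax.isLocalMax hnb
    have h5 := Lr_nonpos hσ hp hs hloc
    rw [hh, Lr_add hσ hf (ba_sm l i₀), Lr_ba hσ] at h5
    have h6 := hbf y
    have h7 := mul_le_mul_of_nonneg_left (hb y hy) hb0
    linarith

theorem enc : RowENC := by
  intro n hn φ q₀ hB
  have hφ := hB.p.1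
  have hφp := hB.p.2
  set σ : V n → ℝ := fun y => φ y ^ 2 with hσd
  have hσ : ContDiff ℝ ∞ σ := hφ.pow 2
  have hp : ∀ x, 0 < σ x := fun x => pow_pos (hφp x) 2
  let i₀ : Fin n := ⟨0, hn⟩
  -- a bound for `|∂σ| / σ` on the core
  obtain ⟨B, hB1, hBB⟩ : ∃ B : ℝ, 1 ≤ B ∧ ∀ x ∈ core n, -(B * σ x) ≤ pd i₀ σ x := by
    have hc : ContinuousOn (fun x => |pd i₀ σ x| / σ x) (core n) :=
      (((sm_pd hσ i₀).continuous.abs).div hσ.continuous fun x => (hp x).ne').continuousOn
    obtain ⟨B, hB⟩ := (core_compact n).bddAbove_image hc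
    refine ⟨max B 1, le_max_right _ _, fun x hx => ?_⟩
    have h1 : |pd i₀ σ x| / σ x ≤ B := hB ⟨x, hx, rfl⟩
    rw [div_le_iff₀ (hp x)] at h1
    have h2 : B * σ x ≤ max B 1 * σ x := mul_le_mul_of_nonneg_right (le_max_left _ _) (hp x).le
    have h3 := neg_abs_le (pd i₀ σ x)
    linarith
  set l : ℝ := B + 1 with hl
  have hl0 : 0 ≤ l := by linarith
  have hbar : ∀ x ∈ core n, σ x ≤ (l * pd i₀ σ x + l ^ 2 * σ x) * ba l i₀ x := by
    intro x hx
    have h1 := hBB x hx
    have h2 := hp x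
    have h3 : 1 ≤ ba l i₀ x := by
      unfold ba
      refine Real.one_le_exp ?_
      have := (hx i₀).1
      positivity
    have h4 : σ x ≤ l * pd i₀ σ x + l ^ 2 * σ x := by
      have : l * (-(B * σ x)) ≤ l * pd i₀ σ x := mul_le_mul_of_nonneg_left h1 hl0
      have h5 : 1 ≤ l ^ 2 - l * B := by rw [hl]; nlinarith
      nlinarith
    calc σ x ≤ (l * pd i₀ σ x + l ^ 2 * σ x) * 1 := by linarith
      _ ≤ _ := mul_le_mul_of_nonneg_left h3 (by linarith)
  refine ⟨Real.exp l, Real.one_le_exp hl0, fun f hf h0 b hb hgf x => ?_⟩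
  -- the real form of the hypothesis
  have key : ∀ y, |Lr σ f y| ≤ b * σ y := by
    intro y
    have h1 := hgf y
    unfold gf at h1
    rw [show (fun y => φ y ^ 2) = σ from rfl, dv_sc hσ hf] at h1
    rw [norm_mul, norm_inv, Complex.norm_real, Real.norm_eq_abs] at h1
    have h2 : ‖(φ y : ℂ) ^ 2‖ = σ y := by
      rw [norm_pow, Complex.norm_real, Real.norm_eq_abs, sq_abs]
    rw [h2, inv_mul_le_iff₀ (hp y)] at h1
    linarith
  have main : ∀ g : V n → ℝ, ContDiff ℝ ∞ g → (∀ x ∉ core n, g x = 0) →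
      (∀ y, |Lr σ g y| ≤ b * σ y) → g x ≤ Real.exp l * b := by
    intro g hg hg0 hk
    refine le_of_forall_pos_le_add fun ε hε => ?_
    have he := Real.exp_pos l
    have hδ : 0 < ε / Real.exp l := by positivity
    have := max_pr hσ hp hg hg0 hl0 i₀ hbar (b := b + ε / Real.exp l) (fun y => ?_)
      (by positivity) x
    · have e : (b + ε / Real.exp l) * Real.exp l = Real.exp l * b + ε := by field_simp
      linarith
    · have h1 := neg_abs_le (Lr σ g y)
      have h2 := hk y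
      have h3 : 0 < ε / Real.exp l * σ y := mul_pos hδ (hp y)
      nlinarith
  have h1 := main f hf h0 key
  have h2 := main (fun y => -f y) hf.neg (fun y hy => by simp [h0 y hy]) (fun y => by
    have e : Lr σ (fun y => -f y) y = - Lr σ f y := by
      have := Lr_add hσ (contDiff_const (c := (0 : ℝ))) hf (-1) y
      have e0 : (fun y => (fun _ : V n => (0 : ℝ)) y + -1 * f y) = fun y => -f y := by
        funext z; simp
      rw [e0] at this
      rw [this]
      have : Lr σ (fun _ : V n => (0 : ℝ)) y = 0 := by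
        rw [Lr_eq hσ contDiff_const]
        refine Finset.sum_eq_zero fun i _ => ?_
        have e1 : pd i (fun _ : V n => (0 : ℝ)) = fun _ => 0 := by
          funext z; unfold pd; simp
        rw [e1, e1]; simp
      rw [this]; ring
    rw [e, abs_neg]; exact key y)
  rw [abs_le]
  constructor <;> linarith

end Vale.Agent.P088.LR.H404
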